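import Vale.Agent.P032.S5.H767.Let
import Vale.Agent.P032.Words.Jump

/-!
# P032: the word of a four coloured centre (irredundant frame)

Angles in units of 60 degrees: `pt z u = z + cis (u π / 3)`.  `Xs T z a b c d e f l` is the set of
angles of the letter `l` (`0 = e`, `1 = f`, `2` = closed exact `ab`-arcs, `3` = closed exact `cd`-arcs).
All rules for a circle whose points have at most three colours, and the clean ends as marks.
-/

open Set Filter Topology Metric

noncomputable section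

namespace Vale.Agent.P032.S5.H767

open Vale.Agent.P032.Six

theorem cis_add (s t : ℝ) : cis (s + t) = cis s * cis t := by
  unfold cis; rw [← Complex.exp_add]; congr 1; push_cast; ring

theorem cis_two_pi : cis (2 * Real.pi) = 1 := by
  unfold cis
  have : ((2 * Real.pi : ℝ) : ℂ) * Complex.I = 2 * Real.pi * Complex.I := by push_cast; ring
  rw [this, Complex.exp_two_pi_mul_I]

theorem cis_pi : cis Real.pi = -1 := by
  unfold cis; exact Complex.exp_pi_mul_I

theorem cis_third : cis (Real.pi / 3) = ⟨1 / 2, √3 / 2⟩ := by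
  unfold cis
  apply Complex.ext
  · rw [Complex.exp_ofReal_mul_I_re, Real.cos_pi_div_three]
  · rw [Complex.exp_ofReal_mul_I_im, Real.sin_pi_div_three]

theorem cis_neg_third : cis (-(Real.pi / 3)) = ⟨1 / 2, -(√3 / 2)⟩ := by
  unfold cis
  apply Complex.ext
  · rw [Complex.exp_ofReal_mul_I_re, Real.cos_neg, Real.cos_pi_div_three]
  · rw [Complex.exp_ofReal_mul_I_im, Real.sin_neg, Real.sin_pi_div_three]

/-- the point of `S(z)` at the angle `u` (in units of 60 degrees) -/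
def pt (z : ℂ) (u : ℝ) : ℂ := z + cis (u * (Real.pi / 3))

theorem dist_pt (z : ℂ) (u : ℝ) : dist (pt z u) z = 1 := dist_add_cis _ _

theorem continuous_pt (z : ℂ) : Continuous (pt z) := by
  unfold pt
  exact continuous_const.add (continuous_cis.comp (by fun_prop))

theorem pt_six (z : ℂ) (u : ℝ) : pt z (u + 6) = pt z u := by
  unfold pt
  have : (u + 6) * (Real.pi / 3) = u * (Real.pi / 3) + 2 * Real.pi := by ring
  rw [this, cis_add, cis_two_pi, mul_one]

theorem pt_three (z : ℂ) (u : ℝ) : pt z (u + 3) = 2 * z - pt z u := by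
  unfold pt
  have : (u + 3) * (Real.pi / 3) = u * (Real.pi / 3) + Real.pi := by ring
  rw [this, cis_add, cis_pi]; ring

theorem pt_one (z : ℂ) (u : ℝ) :
    pt z (u + 1) = z + cis (u * (Real.pi / 3)) * (⟨1 / 2, √3 / 2⟩ : ℂ) := by
  unfold pt
  have : (u + 1) * (Real.pi / 3) = u * (Real.pi / 3) + Real.pi / 3 := by ring
  rw [this, cis_add, cis_third]

theorem dist_pt_one (z : ℂ) (u : ℝ) : dist (pt z u) (pt z (u + 1)) = 1 := by
  rw [pt_one, dist_eq_norm]
  have h1 : pt z u - (z + cis (u * (Real.pi / 3)) * (⟨1 / 2, √3 / 2⟩ : ℂ)) =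
      cis (u * (Real.pi / 3)) * (1 - (⟨1 / 2, √3 / 2⟩ : ℂ)) := by
    unfold pt; ring
  rw [h1, norm_mul, norm_cis, one_mul, ← sq_eq_sq₀ (norm_nonneg _) zero_le_one, Complex.sq_norm,
    Complex.normSq_apply]
  simp only [Complex.sub_re, Complex.one_re, Complex.sub_im, Complex.one_im]
  have h3 : √3 * √3 = 3 := Real.mul_self_sqrt (by norm_num)
  nlinarith

/-- the two neighbours of `pt (u + 1)` -/
theorem pt_sum (z : ℂ) (u : ℝ) : pt z u + pt z (u + 2) = pt z (u + 1) + z := by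
  have h1 : pt z (u + 2) = z + cis (u * (Real.pi / 3)) *
      ((⟨1 / 2, √3 / 2⟩ : ℂ) * (⟨1 / 2, √3 / 2⟩ : ℂ)) := by
    unfold pt
    have : (u + 2) * (Real.pi / 3) = u * (Real.pi / 3) + Real.pi / 3 + Real.pi / 3 := by ring
    rw [this, cis_add, cis_add, cis_third]; ring
  have h2 : (1 : ℂ) + (⟨1 / 2, √3 / 2⟩ : ℂ) * (⟨1 / 2, √3 / 2⟩ : ℂ) = (⟨1 / 2, √3 / 2⟩ : ℂ) := by
    have h3 : √3 * √3 = 3 := Real.mul_self_sqrt (by norm_num)
    apply Complex.ext
    · simp only [Complex.add_re, Complex.one_re, Complex.mul_re]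
      nlinarith
    · simp only [Complex.add_im, Complex.one_im, Complex.mul_im]
      ring
  rw [h1, pt_one]
  unfold pt
  linear_combination cis (u * (Real.pi / 3)) * h2

/-- the neighbours of a point are not on a line with it -/
theorem pt_off (z : ℂ) (u : ℝ) :
    pt z (u + 2) ≠ pt z u ∧ pt z (u + 2) + pt z u ≠ 2 * pt z (u + 1) := by
  have h1 := pt_sum z u
  have hne : pt z (u + 1) ≠ z := by
    intro h; have := dist_pt z (u + 1); rw [h, dist_self] at this; exact zero_ne_one this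
  constructor
  · intro h
    rw [h] at h1
    -- then `pt (u + 1) - z = 2 (pt u - z)`, of norm 2
    have h2 : pt z (u + 1) - z = 2 * (pt z u - z) := by linear_combination -h1
    have h3 : dist (pt z (u + 1)) z = 2 := by
      rw [dist_eq_norm, h2, norm_mul, ← dist_eq_norm, dist_pt]; simp
    rw [dist_pt] at h3; norm_num at h3
  · intro h
    exact hne (by linear_combination h1 - h)

variable {U : Fin 6 → Set ℂ} {T : ℂ → Set (Fin 6)} {z : ℂ} {a b c d e f : Fin 6}

/-- the letter sets in the angle coordinate -/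
def Xs (T : ℂ → Set (Fin 6)) (z : ℂ) (a b c d e f : Fin 6) (l : Fin 4) : Set ℝ :=
  {u | pt z u ∈ Lt T z a b c d e f l}

namespace Ctr

theorem x_closed (C : Ctr U T z a b c d e f) (l : Fin 4) : IsClosed (Xs T z a b c d e f l) :=
  (Lt_closed C.irr l).preimage (continuous_pt z)

theorem x_cover (C : Ctr U T z a b c d e f) (u : ℝ) : ∃ l, u ∈ Xs T z a b c d e f l :=
  C.cover (dist_pt z u)

theorem x_per (_ : Ctr U T z a b c d e f) (l : Fin 4) (u : ℝ) :
    u + 6 ∈ Xs T z a b c d e f l ↔ u ∈ Xs T z a b c d e f l := by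
  show pt z (u + 6) ∈ Lt T z a b c d e f l ↔ pt z u ∈ Lt T z a b c d e f l
  rw [pt_six]

/-- `A` and `C` are disjoint -/
theorem x_ac (C : Ctr U T z a b c d e f) {u : ℝ} (h3 : (T (pt z u)).ncard ≤ 3)
    (h : u ∈ Xs T z a b c d e f 2) : u ∉ Xs T z a b c d e f 3 := fun h' => C.noAC h3 h h'

/-- at most two letters -/
theorem x_two (C : Ctr U T z a b c d e f) {u : ℝ} (h3 : (T (pt z u)).ncard ≤ 3) {l m n : Fin 4}
    (hl : u ∈ Xs T z a b c d e f l) (hm : u ∈ Xs T z a b c d e f m)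
    (hn : u ∈ Xs T z a b c d e f n) : l = m ∨ m = n ∨ n = l := by
  rcases C.two h3 hl hm hn with h | h | h
  exacts [Or.inl h, Or.inr (Or.inr h.symm), Or.inr (Or.inl h)]

/-- `A` and `C` are never antipodal -/
theorem x_anti (C : Ctr U T z a b c d e f) {u : ℝ} (h3 : (T (pt z u)).ncard ≤ 3)
    (h : u ∈ Xs T z a b c d e f 2) : u + 3 ∉ Xs T z a b c d e f 3 := by
  intro h'
  have h1 : pt z (u + 3) ∈ closure (Ex T z {c, d}) := h'
  rw [pt_three] at h1
  refine anti C.irr (dist_pt z u) h3 (P := {c, d}) (fun i hi => ?_) h1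
  rw [C.pal] at hi
  have h2 : ({a, b} : Set (Fin 6)) ⊆ T (pt z u) := sub_of_closure C.irr h
  rcases hi with rfl | rfl | hi
  · exact Or.inl (h2 (Or.inl rfl))
  · exact Or.inl (h2 (Or.inr rfl))
  · exact Or.inr hi

/-- `C` and `A` are never antipodal -/
theorem x_anti' (C : Ctr U T z a b c d e f) {u : ℝ} (h3 : (T (pt z u)).ncard ≤ 3)
    (h : u ∈ Xs T z a b c d e f 3) : u + 3 ∉ Xs T z a b c d e f 2 := by
  intro h'
  have h1 : pt z (u + 3) ∈ closure (Ex T z {a, b}) := h'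
  rw [pt_three] at h1
  refine anti C.irr (dist_pt z u) h3 (P := {a, b}) (fun i hi => ?_) h1
  rw [C.pal] at hi
  have h2 : ({c, d} : Set (Fin 6)) ⊆ T (pt z u) := sub_of_closure C.irr h
  rcases hi with rfl | rfl | hi
  · exact Or.inr (Or.inl rfl)
  · exact Or.inr (Or.inr rfl)
  · exact Or.inl (h2 hi)

/-- a letter shared with the next point is not the only letter of the first point -/
theorem x_own (C : Ctr U T z a b c d e f) {u : ℝ} {l : Fin 4} (h : u ∈ Xs T z a b c d e f l)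
    (h' : u + 1 ∈ Xs T z a b c d e f l) : ∃ m, m ≠ l ∧ u ∈ Xs T z a b c d e f m := by
  by_contra hcon
  push Not at hcon
  refine C.int (dist_pt z u) (fun m hm => ?_) (dist_pt z (u + 1)) (dist_pt_one z u) h'
  by_contra hml
  exact hcon m hml hm

/-- a letter shared with the next point is not the only letter of the second point -/
theorem x_own' (C : Ctr U T z a b c d e f) {u : ℝ} {l : Fin 4} (h : u ∈ Xs T z a b c d e f l)
    (h' : u + 1 ∈ Xs T z a b c d e f l) : ∃ m, m ≠ l ∧ u + 1 ∈ Xs T z a b c d e f m := by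
  by_contra hcon
  push Not at hcon
  refine C.int (dist_pt z (u + 1)) (fun m hm => ?_) (dist_pt z u)
    (by rw [dist_comm]; exact dist_pt_one z u) h
  by_contra hml
  exact hcon m hml hm

/-- no two common letters -/
theorem x_swap (C : Ctr U T z a b c d e f) {u : ℝ} {l m : Fin 4} (h3 : (T (pt z u)).ncard ≤ 3)
    (h3' : (T (pt z (u + 1))).ncard ≤ 3) (hl : u ∈ Xs T z a b c d e f l)
    (hl' : u + 1 ∈ Xs T z a b c d e f l) (hm : u ∈ Xs T z a b c d e f m)
    (hm' : u + 1 ∈ Xs T z a b c d e f m) : l = m := by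
  by_contra hlm
  exact C.noswap hlm (dist_pt_one z u) h3 h3' hl hm hl' hm'

theorem x_dbl_aux (C : Ctr U T z a b c d e f) {u : ℝ} {l m : Fin 4} (hlm : l ≠ m)
    (h3 : (T (pt z (u + 1))).ncard ≤ 3) (h3' : (T (pt z u)).ncard ≤ 3)
    (h3'' : (T (pt z (u + 2))).ncard ≤ 3) (h1 : u ∈ Xs T z a b c d e f l)
    (h2 : u + 1 ∈ Xs T z a b c d e f l) (h4 : u + 1 ∈ Xs T z a b c d e f m)
    (h5 : u + 2 ∈ Xs T z a b c d e f m) :
    (l.val < 2 ∧ m.val < 2) ∧
      ∃ x ∈ T z, x ∈ T (pt z (u + 1)) ∧ x ∉ T (pt z u) ∧ x ∉ T (pt z (u + 2)) := by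
  obtain ⟨k1, k2⟩ := pt_off z u
  refine C.dbl hlm (by rw [dist_comm]; exact dist_pt_one z u) ?_ k1 k2 h3 h3' h3'' h2 h1 h4 h5
  have := dist_pt_one z (u + 1)
  have e1 : u + 1 + 1 = u + 2 := by ring
  rw [e1] at this; exact this

/-- a point sharing two different letters with its two neighbours: the letters are `e, f` -/
theorem x_dbl (C : Ctr U T z a b c d e f) {u : ℝ} {l m : Fin 4} (hlm : l ≠ m)
    (h3 : (T (pt z (u + 1))).ncard ≤ 3) (h3' : (T (pt z u)).ncard ≤ 3)
    (h3'' : (T (pt z (u + 2))).ncard ≤ 3) (h1 : u ∈ Xs T z a b c d e f l)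
    (h2 : u + 1 ∈ Xs T z a b c d e f l) (h4 : u + 1 ∈ Xs T z a b c d e f m)
    (h5 : u + 2 ∈ Xs T z a b c d e f m) : l.val < 2 ∧ m.val < 2 :=
  (C.x_dbl_aux hlm h3 h3' h3'' h1 h2 h4 h5).1

/-- ... and the two neighbours do not carry `A` and `C` -/
theorem x_three (C : Ctr U T z a b c d e f) {u : ℝ} {l m : Fin 4} (hlm : l ≠ m)
    (h3 : (T (pt z (u + 1))).ncard ≤ 3) (h3' : (T (pt z u)).ncard ≤ 3)
    (h3'' : (T (pt z (u + 2))).ncard ≤ 3) (h1 : u ∈ Xs T z a b c d e f l)
    (h2 : u + 1 ∈ Xs T z a b c d e f l) (h4 : u + 1 ∈ Xs T z a b c d e f m)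
    (h5 : u + 2 ∈ Xs T z a b c d e f m) :
    ¬ (u ∈ Xs T z a b c d e f 2 ∧ u + 2 ∈ Xs T z a b c d e f 3) ∧
      ¬ (u ∈ Xs T z a b c d e f 3 ∧ u + 2 ∈ Xs T z a b c d e f 2) := by
  obtain ⟨-, x, hxz, -, hx', hx''⟩ := C.x_dbl_aux hlm h3 h3' h3'' h1 h2 h4 h5
  have hx : x ∈ ({a, b} : Set (Fin 6)) ∨ x ∈ ({c, d} : Set (Fin 6)) := by
    rw [C.pal] at hxz
    rcases hxz with rfl | rfl | h
    · exact Or.inl (Or.inl rfl)
    · exact Or.inl (Or.inr rfl)
    · exact Or.inr h
  constructor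
  · rintro ⟨k1, k2⟩
    rcases hx with h | h
    · exact hx' (sub_of_closure C.irr (P := {a, b}) k1 h)
    · exact hx'' (sub_of_closure C.irr (P := {c, d}) k2 h)
  · rintro ⟨k1, k2⟩
    rcases hx with h | h
    · exact hx'' (sub_of_closure C.irr (P := {a, b}) k2 h)
    · exact hx' (sub_of_closure C.irr (P := {c, d}) k1 h)

end Ctr

end Vale.Agent.P032.S5.H767
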