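import Vale.Agent.P032.S5.H767.Pts

/-!
# P032: neighbours on the circle of a point with five or six colours

Points `y, y'` of `S(z)` at distance one with at most three colours have at most one common colour as
soon as `T z` has at least five colours.
-/

open Set Filter Topology Metric

noncomputable section

namespace Vale.Agent.P032.S5.H767

open Vale.Agent.P032.Six

variable {U : Fin 6 → Set ℂ} {T : ℂ → Set (Fin 6)}

/-- two different missing colours leave at most four -/
theorem ncard_le_four {s : Set (Fin 6)} {x x' : Fin 6} (hx : x ∉ s) (hx' : x' ∉ s) (hne : x ≠ x') :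
    s.ncard ≤ 4 := by
  have h1 : Disjoint s {x, x'} := by
    rw [Set.disjoint_right]
    rintro m (rfl | rfl)
    · exact hx
    · exact hx'
  have h2 := Set.ncard_union_eq h1 (Set.toFinite _) (Set.toFinite _)
  have h3 := Set.ncard_le_ncard (subset_univ (s ∪ {x, x'})) (Set.toFinite _)
  have h4 : (univ : Set (Fin 6)).ncard = 6 := by rw [Set.ncard_univ, Nat.card_eq_fintype_card]; rfl
  rw [Set.ncard_pair hne] at h2
  omega

/-- **At most one common colour at 60 degrees** if `T z` has at least five colours. -/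
theorem common_le_one (h : Irr U T) {z y y' : ℂ} (h5 : 5 ≤ (T z).ncard) (hyz : dist y z = 1)
    (hy'z : dist y' z = 1) (hyy : dist y y' = 1) (h3 : (T y).ncard ≤ 3) (h3' : (T y').ncard ≤ 3)
    {s t : Fin 6} (hs : s ∈ T y) (hs' : s ∈ T y') (ht : t ∈ T y) (ht' : t ∈ T y') : s = t := by
  by_contra hst
  obtain ⟨x, hxz, hx, hx', -, -⟩ := hand h hyz hy'z hyy h3 h3' hst hs ht hs' ht'
  obtain ⟨w, hwz, hw, hw', -, -⟩ := hand h hy'z hyz (by rw [dist_comm]; exact hyy) h3' h3 hst hs'
    ht' hs ht
  have hxw : x ≠ w := fun h1 => hx' (h1 ▸ hw)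
  have := ncard_le_four hxz hwz hxw
  omega

/-- the only colour of an arc of `S(z)` at `y` is absent at the neighbours (open form): if `S(z)`
near `y` is inside `{t ∈ T}`, then `t` is no colour of the neighbours -/
theorem arc_free (h : Irr U T) {z y y' : ℂ} {t : Fin 6} (hyz : dist y z = 1)
    (hJ : ∀ᶠ q in 𝓝[sphere z 1] y, t ∈ T q) (hy'z : dist y' z = 1) (hyy : dist y y' = 1) :
    t ∉ T y' := by
  obtain ⟨k1, k2⟩ := tri hyz hy'z
  exact fun ht => line_free h hyz hJ hyy (fun h1 => k1 h1.symm)
    (fun h1 => k2 (by rw [← h1]; ring)) (h.sub _ ht)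

/-- a point with two colours, both shared with non collinear neighbours: impossible -/
theorem two_contact (h : Irr U T) {y y' y'' : ℂ} {s t : Fin 6} (hT : T y ⊆ {s, t})
    (hyy : dist y y' = 1) (hyy' : dist y y'' = 1) (hne : y'' ≠ y') (hne2 : y'' + y' ≠ 2 * y)
    (hs : s ∈ T y') (ht : t ∈ T y'') : False := by
  rcases h.lemmaB hT hyy hyy' (h.sub _ hs) (h.sub _ ht) with h1 | h1
  · exact hne h1
  · exact hne2 h1

/-- **Lemma X at a neighbour**: `T y ⊆ {t} ∪ T y'`, `t ∈ T z`: impossible; so `T y ∖ T y'` is either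
one colour outside `T z` or has at least two elements -/
theorem two_diff (h : Irr U T) {z y y' : ℂ} (hyz : dist y z = 1) (hy'z : dist y' z = 1)
    (hyy : dist y y' = 1) (h3' : (T y').ncard ≤ 3) {t : Fin 6} (ht : t ∈ T z)
    (hsub : T y ⊆ insert t (T y')) : False := by
  obtain ⟨k1, k2⟩ := tri hyz hy'z
  rcases h.lemmaX hyy h3' hsub hyz (h.sub z ht) with h1 | h1
  · exact k1 h1
  · exact k2 h1

end Vale.Agent.P032.S5.H767
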