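import Vale.Agent.P032.S5.H767.Raw
import Vale.Agent.P032.Words.H349.TieSym

/-!
# P032: a clean four coloured centre is a `RawT` word

`Ctr.rawT`: if all points of `S(z)` have at most three colours then the letter sets form a `RawT`.
-/

open Set Filter Topology Metric

noncomputable section

namespace Vale.Agent.P032.S5.H767

open Vale.Agent.P032.Six Vale.Agent.P032.Words

variable {U : Fin 6 → Set ℂ} {T : ℂ → Set (Fin 6)} {z : ℂ} {a b c d e f : Fin 6}

/-- **The word of a clean centre.** -/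
theorem Ctr.rawT (C : Ctr U T z a b c d e f) (h3 : ∀ y, dist y z = 1 → (T y).ncard ≤ 3) :
    RawT (Xs T z a b c d e f) where
  closed := C.x_closed
  cover := C.x_cover
  per := C.x_per
  anti := fun u h => C.x_anti (h3 _ (dist_pt z u)) h
  ac := fun u h => C.x_ac (h3 _ (dist_pt z u)) h
  two := fun u l m n hl hm hn => C.x_two (h3 _ (dist_pt z u)) hl hm hn
  own := fun u l h h' => C.x_own h h'
  own' := fun u l h h' => C.x_own' h h'
  swap := fun u l m h1 h2 h4 h5 =>
    C.x_swap (h3 _ (dist_pt z u)) (h3 _ (dist_pt z (u + 1))) h1 h2 h4 h5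
  dbl := fun u l m hlm h1 h2 h4 h5 => C.x_dbl hlm (h3 _ (dist_pt z (u + 1)))
    (h3 _ (dist_pt z u)) (h3 _ (dist_pt z (u + 2))) h1 h2 h4 h5
  three := fun u l m hlm h1 h2 h4 h5 => C.x_three hlm (h3 _ (dist_pt z (u + 1)))
    (h3 _ (dist_pt z u)) (h3 _ (dist_pt z (u + 2))) h1 h2 h4 h5

/-- a point with the letters `e` and `A` has the palette `{a, b, e}` -/
theorem Ctr.pal_eA (C : Ctr U T z a b c d e f) {u : ℝ} (h3 : (T (pt z u)).ncard ≤ 3)
    (h0 : u ∈ Xs T z a b c d e f 0) (h2 : u ∈ Xs T z a b c d e f 2) :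
    T (pt z u) = {a, b, e} := by
  have hn := C.nd
  simp only [List.nodup_cons, List.mem_cons, List.not_mem_nil, or_false, not_or, List.nodup_nil,
    and_true, not_false_eq_true] at hn
  obtain ⟨⟨ab, ac, ad, ae, af⟩, ⟨bc, bd, be, bf⟩, ⟨cd, ce, cf⟩, ⟨de, df⟩, ef⟩ := hn
  have k2 : ({a, b} : Set (Fin 6)) ⊆ T (pt z u) := sub_of_closure C.irr h2
  have h1 : ({a, b, e} : Set (Fin 6)) ⊆ T (pt z u) := by
    rintro m (rfl | rfl | rfl)
    · exact k2 (Or.inl rfl)
    · exact k2 (Or.inr rfl)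
    · exact h0.2
  have h4 : ({a, b, e} : Set (Fin 6)).ncard = 3 :=
    Set.ncard_eq_three.2 ⟨a, b, e, ab, ae, be, rfl⟩
  exact (Set.eq_of_subset_of_ncard_le h1 (by omega) (Set.toFinite _)).symm

/-- renaming the missing colours -/
theorem Ctr.swapEF (C : Ctr U T z a b c d e f) : Ctr U T z a b c d f e where
  irr := C.irr
  pal := C.pal
  nd := by
    have hn := C.nd
    simp only [List.nodup_cons, List.mem_cons, List.not_mem_nil, or_false, not_or, List.nodup_nil,
      and_true, not_false_eq_true] at hn ⊢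
    obtain ⟨⟨ab, ac, ad, ae, af⟩, ⟨bc, bd, be, bf⟩, ⟨cd, ce, cf⟩, ⟨de, df⟩, ef⟩ := hn
    exact ⟨⟨ab, ac, ad, af, ae⟩, ⟨bc, bd, bf, be⟩, ⟨cd, cf, ce⟩, ⟨df, de⟩, fun h => ef h.symm⟩
  pairs := C.pairs

/-- exchanging the two pairs -/
theorem Ctr.swapAC (C : Ctr U T z a b c d e f) : Ctr U T z c d a b e f where
  irr := C.irr
  pal := by
    rw [C.pal]; ext i
    simp only [mem_insert_iff, mem_singleton_iff]
    tauto
  nd := by
    have hn := C.nd
    simp only [List.nodup_cons, List.mem_cons, List.not_mem_nil, or_false, not_or, List.nodup_nil,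
      and_true, not_false_eq_true] at hn ⊢
    obtain ⟨⟨ab, ac, ad, ae, af⟩, ⟨bc, bd, be, bf⟩, ⟨cd, ce, cf⟩, ⟨de, df⟩, ef⟩ := hn
    exact ⟨⟨cd, fun h => ac h.symm, fun h => bc h.symm, ce, cf⟩,
      ⟨fun h => ad h.symm, fun h => bd h.symm, de, df⟩, ⟨ab, ae, af⟩, ⟨be, bf⟩, ef⟩
  pairs := fun y h1 h2 h4 => (C.pairs y h1 h2 h4).symm

/-- near a point of the circle in the angle coordinate -/
theorem ev_pt (z : ℂ) {u : ℝ} {p : ℂ → Prop} (h : ∀ᶠ q in 𝓝[sphere z 1] (pt z u), p q) :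
    ∀ᶠ v in 𝓝 u, p (pt z v) := by
  have h1 : Tendsto (pt z) (𝓝 u) (𝓝[sphere z 1] (pt z u)) :=
    tendsto_nhdsWithin_of_tendsto_nhds_of_eventually_within _ ((continuous_pt z).tendsto u)
      (Eventually.of_forall fun v => dist_pt z v)
  exact h1.eventually h

/-- near a point of the circle, from the angle coordinate to the circle -/
theorem ev_circle (z : ℂ) {u : ℝ} {p : ℂ → Prop} (h : ∀ᶠ v in 𝓝 u, p (pt z v)) :
    ∀ᶠ q in 𝓝[sphere z 1] (pt z u), p q := by
  set c0 : ℂ := cis (u * (Real.pi / 3)) with hc0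
  have hc0n : ‖c0‖ = 1 := norm_cis _
  have hne : c0 ≠ 0 := by intro h0; rw [h0, norm_zero] at hc0n; exact zero_ne_one hc0n
  -- the inverse chart
  let g : ℂ → ℝ := fun q => u + ((q - z) / c0).arg / (Real.pi / 3)
  have hpi : Real.pi / 3 ≠ 0 := by positivity
  have hp : (pt z u - z) / c0 = 1 := by
    unfold pt; rw [add_sub_cancel_left]; exact div_self hne
  have hg : ContinuousAt g (pt z u) := by
    have h1 : ContinuousAt (fun q : ℂ => (q - z) / c0) (pt z u) := by
      have : Continuous fun q : ℂ => (q - z) / c0 := by fun_prop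
      exact this.continuousAt
    have h2 : ContinuousAt Complex.arg ((pt z u - z) / c0) := by
      rw [hp]; exact Complex.continuousAt_arg Complex.one_mem_slitPlane
    have h3 : ContinuousAt (fun q : ℂ => ((q - z) / c0).arg) (pt z u) :=
      ContinuousAt.comp (g := Complex.arg) h2 h1
    exact continuousAt_const.add (h3.div_const _)
  have hgu : g (pt z u) = u := by
    show u + ((pt z u - z) / c0).arg / (Real.pi / 3) = u
    rw [hp, Complex.arg_one]; ring
  have h1 : Tendsto g (𝓝[sphere z 1] (pt z u)) (𝓝 u) := by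
    have := hg.tendsto
    rw [hgu] at this
    exact this.mono_left nhdsWithin_le_nhds
  filter_upwards [h1.eventually h, self_mem_nhdsWithin] with q hq hqz
  have hqz : dist q z = 1 := hqz
  have e : pt z (g q) = q := by
    show z + cis ((u + ((q - z) / c0).arg / (Real.pi / 3)) * (Real.pi / 3)) = q
    have e1 : (u + ((q - z) / c0).arg / (Real.pi / 3)) * (Real.pi / 3) =
        u * (Real.pi / 3) + ((q - z) / c0).arg := by field_simp
    have hn : ‖(q - z) / c0‖ = 1 := by
      rw [norm_div, hc0n, ← dist_eq_norm, hqz, div_one]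
    have e2 : cis ((q - z) / c0).arg = (q - z) / c0 := by
      have := Complex.norm_mul_exp_arg_mul_I ((q - z) / c0)
      rw [hn] at this
      simpa [cis] using this
    rw [e1, cis_add, e2, ← hc0, mul_div_cancel₀ _ hne]
    ring
  rw [e] at hq
  exact hq

/-- exact arcs in the angle coordinate -/
theorem mem_Ex_of (z : ℂ) {u : ℝ} {P : Set (Fin 6)} (h : ∀ᶠ v in 𝓝 u, T (pt z v) = P) :
    pt z u ∈ Ex T z P := ⟨dist_pt z u, ev_circle z h⟩

/-- an exact arc to the left of `V` -/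
theorem mem_closure_left {V : ℝ} {P : Set (Fin 6)}
    (h : ∀ᶠ v in 𝓝[<] V, T (pt z v) = P) : pt z V ∈ closure (Ex T z P) := by
  obtain ⟨w, hw, hs⟩ := (mem_nhdsLT_iff_exists_Ioo_subset (a := V)).1 h
  have h1 : ∀ v ∈ Ioo w V, pt z v ∈ Ex T z P := fun v hv =>
    mem_Ex_of z (mem_of_superset (Ioo_mem_nhds hv.1 hv.2) hs)
  rw [mem_closure_iff_nhds]
  intro N hN
  have h2 : ∀ᶠ v in 𝓝[<] V, pt z v ∈ N :=
    ((continuous_pt z).tendsto V).eventually hN |>.filter_mono nhdsWithin_le_nhds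
  obtain ⟨v, hv, hvN⟩ := ((Ioo_mem_nhdsLT hw : Ioo w V ∈ 𝓝[<] V) |> fun k =>
    (Eventually.and k h2).exists)
  exact ⟨_, hvN, h1 v hv⟩

/-- an exact arc to the right of `V` -/
theorem mem_closure_right {V : ℝ} {P : Set (Fin 6)}
    (h : ∀ᶠ v in 𝓝[>] V, T (pt z v) = P) : pt z V ∈ closure (Ex T z P) := by
  obtain ⟨w, hw, hs⟩ := (mem_nhdsGT_iff_exists_Ioo_subset (a := V)).1 h
  have h1 : ∀ v ∈ Ioo V w, pt z v ∈ Ex T z P := fun v hv =>
    mem_Ex_of z (mem_of_superset (Ioo_mem_nhds hv.1 hv.2) hs)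
  rw [mem_closure_iff_nhds]
  intro N hN
  have h2 : ∀ᶠ v in 𝓝[>] V, pt z v ∈ N :=
    ((continuous_pt z).tendsto V).eventually hN |>.filter_mono nhdsWithin_le_nhds
  obtain ⟨v, hv, hvN⟩ := ((Ioo_mem_nhdsGT hw : Ioo V w ∈ 𝓝[>] V) |> fun k =>
    (Eventually.and k h2).exists)
  exact ⟨_, hvN, h1 v hv⟩

/-- **Clean end, arc to the left.** -/
theorem Ctr.mark_left (C : Ctr U T z a b c d e f) {V : ℝ} (hV : T (pt z V) = {a, b, e})
    (hl : ∀ᶠ v in 𝓝[<] V, T (pt z v) = {a, b})
    (hr : ∀ᶠ v in 𝓝[>] V, ¬ ({a, b} : Set (Fin 6)) ⊆ T (pt z v)) :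
    Mark (Xs T z a b c d e f) 2 0 V := by
  have hn := C.nd
  simp only [List.nodup_cons, List.mem_cons, List.not_mem_nil, or_false, not_or, List.nodup_nil,
    and_true, not_false_eq_true] at hn
  obtain ⟨⟨ab, ac, ad, ae, af⟩, ⟨bc, bd, be, bf⟩, ⟨cd, ce, cf⟩, ⟨de, df⟩, ef⟩ := hn
  refine ⟨mem_closure_left hl, ⟨dist_pt z V, by rw [hV]; simp⟩, ?_, ?_, ?_⟩
  · intro l hl'
    have hc := Lt_col C.irr (show pt z V ∈ Lt T z a b c d e f l from hl')
    rw [hV] at hc
    fin_cases l
    · exact Or.inr rfl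
    · exfalso
      have := hc (show f ∈ ({f} : Set (Fin 6)) from rfl)
      simp only [mem_insert_iff, mem_singleton_iff] at this
      rcases this with h | h | h
      exacts [af h.symm, bf h.symm, ef h.symm]
    · exact Or.inl rfl
    · exfalso
      have := hc (show c ∈ ({c, d} : Set (Fin 6)) from Or.inl rfl)
      simp only [mem_insert_iff, mem_singleton_iff] at this
      rcases this with h | h | h
      exacts [ac h.symm, bc h.symm, ce h]
  · filter_upwards [hl] with v hv hv'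
    have h1 : e ∈ T (pt z v) := hv'.2
    rw [hv] at h1
    rcases h1 with h | h
    exacts [ae h.symm, be h.symm]
  · filter_upwards [hr] with v hv hv'
    exact hv (sub_of_closure C.irr (P := {a, b}) hv')

/-- **Clean end, arc to the right.** -/
theorem Ctr.mark_right (C : Ctr U T z a b c d e f) {V : ℝ} (hV : T (pt z V) = {a, b, e})
    (hr : ∀ᶠ v in 𝓝[>] V, T (pt z v) = {a, b})
    (hl : ∀ᶠ v in 𝓝[<] V, ¬ ({a, b} : Set (Fin 6)) ⊆ T (pt z v)) :
    Mark (Xs T z a b c d e f) 0 2 V := by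
  have hn := C.nd
  simp only [List.nodup_cons, List.mem_cons, List.not_mem_nil, or_false, not_or, List.nodup_nil,
    and_true, not_false_eq_true] at hn
  obtain ⟨⟨ab, ac, ad, ae, af⟩, ⟨bc, bd, be, bf⟩, ⟨cd, ce, cf⟩, ⟨de, df⟩, ef⟩ := hn
  refine ⟨⟨dist_pt z V, by rw [hV]; simp⟩, mem_closure_right hr, ?_, ?_, ?_⟩
  · intro l hl'
    have hc := Lt_col C.irr (show pt z V ∈ Lt T z a b c d e f l from hl')
    rw [hV] at hc
    fin_cases l
    · exact Or.inl rfl
    · exfalso
      have := hc (show f ∈ ({f} : Set (Fin 6)) from rfl)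
      simp only [mem_insert_iff, mem_singleton_iff] at this
      rcases this with h | h | h
      exacts [af h.symm, bf h.symm, ef h.symm]
    · exact Or.inr rfl
    · exfalso
      have := hc (show c ∈ ({c, d} : Set (Fin 6)) from Or.inl rfl)
      simp only [mem_insert_iff, mem_singleton_iff] at this
      rcases this with h | h | h
      exacts [ac h.symm, bc h.symm, ce h]
  · filter_upwards [hl] with v hv hv'
    exact hv (sub_of_closure C.irr (P := {a, b}) hv')
  · filter_upwards [hr] with v hv hv'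
    have h1 : e ∈ T (pt z v) := hv'.2
    rw [hv] at h1
    rcases h1 with h | h
    exacts [ae h.symm, be h.symm]

end Vale.Agent.P032.S5.H767
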