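import Vale.Agent.P032.S5.H767.RawT

/-!
# P032: the word of a four coloured centre with harmless four coloured points on the circle

`Hx T z p q e f y`: `T y = {p, q, e, f}`, the pair `{p, q}` is the only possible constant palette of
`S(y)` inside `T y`, and no exact `pq`-arcs of `S(z)` accumulate at `y`.
-/

open Set Filter Topology Metric

noncomputable section

namespace Vale.Agent.P032.S5.H767

open Vale.Agent.P032.Six Vale.Agent.P032.Words

section
variable {k : ℕ} {U : Fin k → Set ℂ} {T : ℂ → Set (Fin k)}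

/-- `s` is a face at `x`: no palette on `S(x)` is inside `s` -/
def Fc (T : ℂ → Set (Fin k)) (x : ℂ) (s : Set (Fin k)) : Prop := ∀ w, dist w x = 1 → ¬ T w ⊆ s

theorem fc_three (h : Irr U T) {x : ℂ} (h3 : (T x).ncard ≤ 3) : Fc T x (T x) :=
  fun _ hw => h.not_sub hw h3

theorem Fc.mono {x : ℂ} {s t : Set (Fin k)} (h : Fc T x t) (hst : s ⊆ t) : Fc T x s :=
  fun w hw h1 => h w hw (h1.trans hst)

/-- **Lemma X** for a face -/
theorem lemmaF (h : Irr U T) {u p v : ℂ} {t : Fin k} {s : Set (Fin k)} (hup : dist p u = 1)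
    (hs : Fc T u s) (ht : T p ⊆ insert t s) (hv : dist p v = 1) (htv : t ∈ Pal U v) :
    v = u ∨ v + u = 2 * p := by
  refine h.mx.partner_line hup ?_ hv htv
  filter_upwards [mem_nhdsWithin_of_mem_nhds (h.nhd p), self_mem_nhdsWithin] with q h1 h2
  have h3 := hs q h2
  rw [not_subset] at h3
  obtain ⟨m, hm, hms⟩ := h3
  rcases ht (h1 hm) with rfl | h4
  · exact h.sub q hm
  · exact absurd h4 hms

/-- the centre is not on the line of two neighbours -/
theorem lemmaFz (h : Irr U T) {z u p : ℂ} {t : Fin k} {s : Set (Fin k)} (hpz : dist p z = 1)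
    (huz : dist u z = 1) (hup : dist p u = 1) (hs : Fc T u s) (ht : T p ⊆ insert t s)
    (htz : t ∈ T z) : False := by
  obtain ⟨h1, h2⟩ := tri hpz huz
  rcases lemmaF h hup hs ht hpz (h.sub z htz) with h3 | h3
  · exact h1 h3
  · exact h2 h3

end

variable {U : Fin 6 → Set ℂ} {T : ℂ → Set (Fin 6)} {z : ℂ} {a b c d e f : Fin 6}

/-- a harmless four coloured point of `S(z)` without `pq`-arcs -/
def Hx (T : ℂ → Set (Fin 6)) (z : ℂ) (p q e f : Fin 6) (y : ℂ) : Prop :=
  T y = {p, q, e, f} ∧ (∀ w, dist w y = 1 → T w ⊆ T y → ({p, q} : Set (Fin 6)) ⊆ T w) ∧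
    y ∉ closure (Ex T z {p, q})

/-- an admissible point of `S(z)` -/
def Adm (T : ℂ → Set (Fin 6)) (z : ℂ) (a b c d e f : Fin 6) (y : ℂ) : Prop :=
  (T y).ncard ≤ 3 ∨ Hx T z a b e f y ∨ Hx T z c d e f y

theorem Hx.face {p q : Fin 6} {y : ℂ} (h : Hx T z p q e f y) {s : Set (Fin 6)}
    (hs : s ⊆ {p, q, e, f}) (hpq : ¬ ({p, q} : Set (Fin 6)) ⊆ s) : Fc T y s := by
  intro w hw hws
  exact hpq ((h.2.1 w hw (by rw [h.1]; exact hws.trans hs)).trans hws)

theorem Adm.swapAC {y : ℂ} (h : Adm T z a b c d e f y) : Adm T z c d a b e f y := by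
  rcases h with h | h | h
  exacts [Or.inl h, Or.inr (Or.inr h), Or.inr (Or.inl h)]

namespace Ctr

theorem sep (C : Ctr U T z a b c d e f) :
    (a ≠ b ∧ a ≠ c ∧ a ≠ d ∧ a ≠ e ∧ a ≠ f) ∧ (b ≠ c ∧ b ≠ d ∧ b ≠ e ∧ b ≠ f) ∧
      (c ≠ d ∧ c ≠ e ∧ c ≠ f) ∧ (d ≠ e ∧ d ≠ f) ∧ e ≠ f := by
  have hn := C.nd
  simp only [List.nodup_cons, List.mem_cons, List.not_mem_nil, or_false, not_or, List.nodup_nil,
    and_true, not_false_eq_true] at hn
  exact hn

/-- a harmless point carries the letters `e` and `f` only -/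
theorem hx_letter (C : Ctr U T z a b c d e f) {y : ℂ} (hx : Hx T z a b e f y) {l : Fin 4}
    (hl : y ∈ Lt T z a b c d e f l) : l = 0 ∨ l = 1 := by
  obtain ⟨⟨ab, ac, ad, ae, af⟩, ⟨bc, bd, be, bf⟩, ⟨cd, ce, cf⟩, ⟨de, df⟩, ef⟩ := C.sep
  have k1 := Lt_col C.irr hl
  rw [hx.1] at k1
  fin_cases l
  · exact Or.inl rfl
  · exact Or.inr rfl
  · exact absurd hl hx.2.2
  · exfalso
    have := k1 (show c ∈ ({c, d} : Set (Fin 6)) from Or.inl rfl)
    simp only [mem_insert_iff, mem_singleton_iff] at this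
    rcases this with h | h | h | h
    exacts [ac h.symm, bc h.symm, ce h, cf h]

/-- exchange of the two pairs for letters -/
theorem lt_swap (l : Fin 4) : Lt T z c d a b e f l = Lt T z a b c d e f (Equiv.swap 2 3 l) := by
  fin_cases l <;> rfl

theorem hx_letter' (C : Ctr U T z a b c d e f) {y : ℂ} (hx : Hx T z c d e f y) {l : Fin 4}
    (hl : y ∈ Lt T z a b c d e f l) : l = 0 ∨ l = 1 := by
  have h1 : y ∈ Lt T z c d a b e f (Equiv.swap 2 3 l) := by
    rw [lt_swap, Equiv.swap_apply_self]; exact hl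
  rcases C.swapAC.hx_letter hx h1 with h2 | h2
  · left
    rw [← Equiv.swap_apply_self 2 3 l, h2]; rfl
  · right
    rw [← Equiv.swap_apply_self 2 3 l, h2]; rfl

/-- a point with a pair letter has at most three colours -/
theorem le_of_pair (C : Ctr U T z a b c d e f) {y : ℂ} (hA : Adm T z a b c d e f y) {l : Fin 4}
    (hl : y ∈ Lt T z a b c d e f l) (h2 : 2 ≤ l.val) : (T y).ncard ≤ 3 := by
  rcases hA with h | h | h
  · exact h
  · rcases C.hx_letter h hl with rfl | rfl <;> exact absurd h2 (by decide)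
  · rcases C.hx_letter' h hl with rfl | rfl <;> exact absurd h2 (by decide)

/-- a point with the letters `e, f` next to a harmless one of type `ab` -/
theorem swap_hx (C : Ctr U T z a b c d e f) {y y' : ℂ} (hy : Hx T z a b e f y)
    (hyz : dist y z = 1) (hy'z : dist y' z = 1) (hyy : dist y y' = 1)
    (hA : Adm T z a b c d e f y') (hD : ¬ Hx T z c d e f y') (he : e ∈ T y') (hf : f ∈ T y') :
    False := by
  obtain ⟨⟨ab, ac, ad, ae, af⟩, ⟨bc, bd, be, bf⟩, ⟨cd, ce, cf⟩, ⟨de, df⟩, ef⟩ := C.sep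
  have hyy' : dist y' y = 1 := by rw [dist_comm]; exact hyy
  rcases hA with h3 | hx | hx
  · -- `T y' ⊆ {e, f, x}`
    by_cases hsub : T y' ⊆ {e, f}
    · exact hy.face (s := {e, f}) (by
        rintro m (rfl | rfl)
        · simp
        · simp) (by
        intro h
        rcases h (Or.inl rfl) with h1 | h1
        exacts [ae h1, af h1]) y' hyy' hsub
    · rw [not_subset] at hsub
      obtain ⟨x, hx, hxef⟩ := hsub
      have hxe : x ≠ e := fun h => hxef (Or.inl h)
      have hxf : x ≠ f := fun h => hxef (Or.inr h)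
      have h1 : ({x, e, f} : Set (Fin 6)) ⊆ T y' := by
        rintro m (rfl | rfl | rfl)
        exacts [hx, he, hf]
      have h2 : ({x, e, f} : Set (Fin 6)).ncard = 3 :=
        Set.ncard_eq_three.2 ⟨x, e, f, hxe, hxf, ef, rfl⟩
      have h4 : T y' = {x, e, f} :=
        (Set.eq_of_subset_of_ncard_le h1 (by omega) (Set.toFinite _)).symm
      by_cases hxy : x ∈ T y
      · -- a face
        refine hy.face (s := {x, e, f}) ?_ ?_ y' hyy' h4.subset
        · rintro m (rfl | rfl | rfl)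
          · rw [hy.1] at hxy; exact hxy
          · simp
          · simp
        · intro h
          have k1 := h (Or.inl rfl)
          have k2 := h (Or.inr rfl)
          simp only [mem_insert_iff, mem_singleton_iff] at k1 k2
          rcases k1 with k1 | k1 | k1
          · rcases k2 with k2 | k2 | k2
            exacts [ab (k1.trans k2.symm), be k2, bf k2]
          · exact ae k1
          · exact af k1
      · -- `x ∈ T z`
        have hxz : x ∈ T z := by
          by_contra h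
          rcases C.miss h with h5 | h5
          exacts [hxe h5, hxf h5]
        exact lemmaFz C.irr hy'z hyz hyy' (hy.face (s := {e, f}) (by
          rintro m (rfl | rfl)
          · simp
          · simp) (by
          intro h
          rcases h (Or.inl rfl) with h1 | h1
          exacts [ae h1, af h1])) (by rw [h4]) hxz
  · refine lemmaFz C.irr hy'z hyz hyy' (t := b) (s := {a, e, f}) (hy.face ?_ ?_) ?_ ?_
    · rintro m (rfl | rfl | rfl)
      · simp
      · simp
      · simp
    · intro h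
      have k2 := h (Or.inr rfl)
      simp only [mem_insert_iff, mem_singleton_iff] at k2
      rcases k2 with k2 | k2 | k2
      exacts [ab k2.symm, be k2, bf k2]
    · rw [hx.1]
      rintro m (rfl | rfl | rfl | rfl)
      · simp
      · simp
      · simp
      · simp
    · rw [C.pal]; simp
  · exact hD hx

/-- no two common letters at neighbours, admissible points -/
theorem noswap_adm (C : Ctr U T z a b c d e f) {y y' : ℂ} {l m : Fin 4} (hlm : l ≠ m)
    (hyy : dist y y' = 1) (hA : Adm T z a b c d e f y) (hA' : Adm T z a b c d e f y')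
    (hD : Hx T z a b e f y → ¬ Hx T z c d e f y') (hD' : Hx T z c d e f y → ¬ Hx T z a b e f y')
    (hl : y ∈ Lt T z a b c d e f l) (hm : y ∈ Lt T z a b c d e f m)
    (hl' : y' ∈ Lt T z a b c d e f l) (hm' : y' ∈ Lt T z a b c d e f m) : False := by
  have hy := Lt_dist hl
  have hy' := Lt_dist hl'
  have hyy' : dist y' y = 1 := by rw [dist_comm]; exact hyy
  -- both letters `e, f`
  have key : ∀ w, w ∈ Lt T z a b c d e f l → w ∈ Lt T z a b c d e f m → (l = 0 ∨ l = 1) →
      (m = 0 ∨ m = 1) → e ∈ T w ∧ f ∈ T w := by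
    intro w h1 h2 h3 h4
    rcases h3 with rfl | rfl <;> rcases h4 with rfl | rfl
    · exact absurd rfl hlm
    · exact ⟨h1.2, h2.2⟩
    · exact ⟨h2.2, h1.2⟩
    · exact absurd rfl hlm
  rcases hA with h3 | hx | hx
  · rcases hA' with h3' | hx' | hx'
    · exact C.noswap hlm hyy h3 h3' hl hm hl' hm'
    · have k := key y hl hm (C.hx_letter hx' hl') (C.hx_letter hx' hm')
      refine C.swap_hx hx' hy' hy hyy' (Or.inl h3) (fun h => ?_) k.1 k.2
      have := four_le (s := T y) (p := c) (q := d) (r := e) (t := f) (by rw [h.1]; simp)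
        (by rw [h.1]; simp) (by rw [h.1]; simp) (by rw [h.1]; simp) (by
          obtain ⟨⟨ab, ac, ad, ae, af⟩, ⟨bc, bd, be, bf⟩, ⟨cd, ce, cf⟩, ⟨de, df⟩, ef⟩ := C.sep
          simp [cd, ce, cf, de, df, ef])
      omega
    · have k := key y hl hm (C.hx_letter' hx' hl') (C.hx_letter' hx' hm')
      refine C.swapAC.swap_hx hx' hy' hy hyy' (Or.inl h3) (fun h => ?_) k.1 k.2
      have := four_le (s := T y) (p := a) (q := b) (r := e) (t := f) (by rw [h.1]; simp)
        (by rw [h.1]; simp) (by rw [h.1]; simp) (by rw [h.1]; simp) (by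
          obtain ⟨⟨ab, ac, ad, ae, af⟩, ⟨bc, bd, be, bf⟩, ⟨cd, ce, cf⟩, ⟨de, df⟩, ef⟩ := C.sep
          simp [ab, ae, af, be, bf, ef])
      omega
  · have k := key y' hl' hm' (C.hx_letter hx hl) (C.hx_letter hx hm)
    exact C.swap_hx hx hy hy' hyy hA' (hD hx) k.1 k.2
  · have k := key y' hl' hm' (C.hx_letter' hx hl) (C.hx_letter' hx hm)
    exact C.swapAC.swap_hx hx hy hy' hyy hA'.swapAC (hD' hx) k.1 k.2

/-- a double contact at a harmless point of type `ab`: the neighbours do not carry `A` -/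
theorem hx_noA (C : Ctr U T z a b c d e f) {y y' y'' : ℂ} {l m : Fin 4} (hlm : l ≠ m)
    (hyy : dist y y' = 1) (hyy' : dist y y'' = 1) (hne : y'' ≠ y') (hne2 : y'' + y' ≠ 2 * y)
    (hx : Hx T z a b e f y) (hA' : Adm T z a b c d e f y')
    (hl : y ∈ Lt T z a b c d e f l) (hl' : y' ∈ Lt T z a b c d e f l)
    (hm : y ∈ Lt T z a b c d e f m) (hm' : y'' ∈ Lt T z a b c d e f m) :
    y' ∉ Lt T z a b c d e f 2 := by
  intro h2
  have h3 := C.le_of_pair hA' h2 (by decide)
  have k2 : ({a, b} : Set (Fin 6)) ⊆ T y' := sub_of_closure C.irr h2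
  have hf := fc_three C.irr h3
  have e1 : (l = 0 ∧ m = 1) ∨ (l = 1 ∧ m = 0) := by
    rcases C.hx_letter hx hl with rfl | rfl <;> rcases C.hx_letter hx hm with rfl | rfl
    · exact absurd rfl hlm
    · exact Or.inl ⟨rfl, rfl⟩
    · exact Or.inr ⟨rfl, rfl⟩
    · exact absurd rfl hlm
  rcases e1 with ⟨rfl, rfl⟩ | ⟨rfl, rfl⟩
  · rcases lemmaF C.irr hyy hf (t := f) (by
      rw [hx.1]
      rintro i (rfl | rfl | rfl | rfl)
      · exact Or.inr (k2 (Or.inl rfl))
      · exact Or.inr (k2 (Or.inr rfl))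
      · exact Or.inr hl'.2
      · exact Or.inl rfl) hyy' (C.irr.sub _ hm'.2) with h | h
    · exact hne h
    · exact hne2 h
  · rcases lemmaF C.irr hyy hf (t := e) (by
      rw [hx.1]
      rintro i (rfl | rfl | rfl | rfl)
      · exact Or.inr (k2 (Or.inl rfl))
      · exact Or.inr (k2 (Or.inr rfl))
      · exact Or.inl rfl
      · exact Or.inr hl'.2) hyy' (C.irr.sub _ hm'.2) with h | h
    · exact hne h
    · exact hne2 h

/-- **(dbl)** for admissible points -/
theorem dbl_adm (C : Ctr U T z a b c d e f) {y y' y'' : ℂ} {l m : Fin 4} (hlm : l ≠ m)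
    (hyy : dist y y' = 1) (hyy' : dist y y'' = 1) (hne : y'' ≠ y') (hne2 : y'' + y' ≠ 2 * y)
    (hA : Adm T z a b c d e f y) (hA' : Adm T z a b c d e f y') (hA'' : Adm T z a b c d e f y'')
    (hl : y ∈ Lt T z a b c d e f l) (hl' : y' ∈ Lt T z a b c d e f l)
    (hm : y ∈ Lt T z a b c d e f m) (hm' : y'' ∈ Lt T z a b c d e f m) :
    (l.val < 2 ∧ m.val < 2) ∧
      ¬ (y' ∈ Lt T z a b c d e f 2 ∧ y'' ∈ Lt T z a b c d e f 3) ∧
      ¬ (y' ∈ Lt T z a b c d e f 3 ∧ y'' ∈ Lt T z a b c d e f 2) := by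
  obtain ⟨⟨ab, ac, ad, ae, af⟩, ⟨bc, bd, be, bf⟩, ⟨cd, ce, cf⟩, ⟨de, df⟩, ef⟩ := C.sep
  have hne' : y' ≠ y'' := hne.symm
  have hne2' : y' + y'' ≠ 2 * y := by rw [add_comm]; exact hne2
  have hy := Lt_dist hl
  have hy' := Lt_dist hl'
  have hy'' := Lt_dist hm'
  have val2 : ∀ n : Fin 4, n = 0 ∨ n = 1 → n.val < 2 := by decide
  rcases hA with h3 | hx | hx
  · have kl := Lt_col C.irr hl
    have kl' := Lt_col C.irr hl'
    have km := Lt_col C.irr hm
    have km' := Lt_col C.irr hm'
    have e23 : ∀ n : Fin 4, ¬ n.val < 2 → n = 2 ∨ n = 3 := by decide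
    have hl2 : l.val < 2 := by
      by_contra hcon
      have h3' := C.le_of_pair hA' hl' (not_lt.1 hcon)
      rcases e23 l hcon with rfl | rfl
      · exact C.dblPair hlm hyy hyy' hne hne2 h3 h3' ab hy hy' (kl (Or.inl rfl)) (kl (Or.inr rfl))
          (kl' (Or.inl rfl)) (kl' (Or.inr rfl)) (fun h => C.ne_col hlm (Or.inl rfl) h rfl)
          (fun h => C.ne_col hlm (Or.inr rfl) h rfl) hm hm'
      · exact C.dblPair hlm hyy hyy' hne hne2 h3 h3' cd hy hy' (kl (Or.inl rfl)) (kl (Or.inr rfl))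
          (kl' (Or.inl rfl)) (kl' (Or.inr rfl)) (fun h => C.ne_col hlm (Or.inl rfl) h rfl)
          (fun h => C.ne_col hlm (Or.inr rfl) h rfl) hm hm'
    have hm2 : m.val < 2 := by
      by_contra hcon
      have h3'' := C.le_of_pair hA'' hm' (not_lt.1 hcon)
      rcases e23 m hcon with rfl | rfl
      · exact C.dblPair hlm.symm hyy' hyy hne' hne2' h3 h3'' ab hy hy'' (km (Or.inl rfl))
          (km (Or.inr rfl)) (km' (Or.inl rfl)) (km' (Or.inr rfl))
          (fun h => C.ne_col hlm.symm (Or.inl rfl) h rfl)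
          (fun h => C.ne_col hlm.symm (Or.inr rfl) h rfl) hl hl'
      · exact C.dblPair hlm.symm hyy' hyy hne' hne2' h3 h3'' cd hy hy'' (km (Or.inl rfl))
          (km (Or.inr rfl)) (km' (Or.inl rfl)) (km' (Or.inr rfl))
          (fun h => C.ne_col hlm.symm (Or.inl rfl) h rfl)
          (fun h => C.ne_col hlm.symm (Or.inr rfl) h rfl) hl hl'
    -- `e, f ∈ T y`
    have e01 : ∀ n : Fin 4, n.val < 2 → n = 0 ∨ n = 1 := by decide
    have hef : e ∈ T y ∧ f ∈ T y := by
      rcases e01 l hl2 with rfl | rfl <;> rcases e01 m hm2 with rfl | rfl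
      · exact absurd rfl hlm
      · exact ⟨hl.2, hm.2⟩
      · exact ⟨hm.2, hl.2⟩
      · exact absurd rfl hlm
    have four1 : ∀ w, Hx T z a b e f w → 4 ≤ (T w).ncard := by
      intro w hw
      exact four_le (p := a) (q := b) (r := e) (t := f) (by rw [hw.1]; simp) (by rw [hw.1]; simp)
        (by rw [hw.1]; simp) (by rw [hw.1]; simp) (by simp [ab, ae, af, be, bf, ef])
    have four2 : ∀ w, Hx T z c d e f w → 4 ≤ (T w).ncard := by
      intro w hw
      exact four_le (p := c) (q := d) (r := e) (t := f) (by rw [hw.1]; simp) (by rw [hw.1]; simp)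
        (by rw [hw.1]; simp) (by rw [hw.1]; simp) (by simp [cd, ce, cf, de, df, ef])
    -- the neighbours have at most three colours
    have three : ∀ w, dist w z = 1 → dist w y = 1 → Adm T z a b c d e f w → (T w).ncard ≤ 3 := by
      intro w hwz hwy hw
      have hyw : dist y w = 1 := by rw [dist_comm]; exact hwy
      rcases hw with h | h | h
      · exact h
      · exfalso
        refine C.swap_hx h hwz hy hwy (Or.inl h3) (fun h5 => ?_) hef.1 hef.2
        have := four2 y h5; omega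
      · exfalso
        refine C.swapAC.swap_hx h hwz hy hwy (Or.inl h3) (fun h5 => ?_) hef.1 hef.2
        have := four1 y h5; omega
    have h3' := three y' hy' (by rw [dist_comm]; exact hyy) hA'
    have h3'' := three y'' hy'' (by rw [dist_comm]; exact hyy') hA''
    obtain ⟨-, x, hxz, -, hx', hx''⟩ := C.dbl hlm hyy hyy' hne hne2 h3 h3' h3'' hl hl' hm hm'
    have hx : x ∈ ({a, b} : Set (Fin 6)) ∨ x ∈ ({c, d} : Set (Fin 6)) := by
      rw [C.pal] at hxz
      rcases hxz with rfl | rfl | h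
      · exact Or.inl (Or.inl rfl)
      · exact Or.inl (Or.inr rfl)
      · exact Or.inr h
    refine ⟨⟨hl2, hm2⟩, ?_, ?_⟩
    · rintro ⟨k1, k2⟩
      rcases hx with h | h
      · exact hx' (sub_of_closure C.irr (P := {a, b}) k1 h)
      · exact hx'' (sub_of_closure C.irr (P := {c, d}) k2 h)
    · rintro ⟨k1, k2⟩
      rcases hx with h | h
      · exact hx'' (sub_of_closure C.irr (P := {a, b}) k2 h)
      · exact hx' (sub_of_closure C.irr (P := {c, d}) k1 h)
  · refine ⟨⟨val2 l (C.hx_letter hx hl), val2 m (C.hx_letter hx hm)⟩, ?_, ?_⟩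
    · rintro ⟨k1, -⟩
      exact C.hx_noA hlm hyy hyy' hne hne2 hx hA' hl hl' hm hm' k1
    · rintro ⟨-, k2⟩
      exact C.hx_noA hlm.symm hyy' hyy hne' hne2' hx hA'' hm hm' hl hl' k2
  · refine ⟨⟨val2 l (C.hx_letter' hx hl), val2 m (C.hx_letter' hx hm)⟩, ?_, ?_⟩
    · rintro ⟨-, k2⟩
      refine C.swapAC.hx_noA (l := Equiv.swap 2 3 m) (m := Equiv.swap 2 3 l)
        (fun h => hlm ((Equiv.swap 2 3).injective h).symm) hyy' hyy hne' hne2' hx hA''.swapAC
        ?_ ?_ ?_ ?_ ?_
      · rw [lt_swap, Equiv.swap_apply_self]; exact hm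
      · rw [lt_swap, Equiv.swap_apply_self]; exact hm'
      · rw [lt_swap, Equiv.swap_apply_self]; exact hl
      · rw [lt_swap, Equiv.swap_apply_self]; exact hl'
      · rw [lt_swap]; exact k2
    · rintro ⟨k1, -⟩
      refine C.swapAC.hx_noA (l := Equiv.swap 2 3 l) (m := Equiv.swap 2 3 m)
        (fun h => hlm ((Equiv.swap 2 3).injective h)) hyy hyy' hne hne2 hx hA'.swapAC
        ?_ ?_ ?_ ?_ ?_
      · rw [lt_swap, Equiv.swap_apply_self]; exact hl
      · rw [lt_swap, Equiv.swap_apply_self]; exact hl'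
      · rw [lt_swap, Equiv.swap_apply_self]; exact hm
      · rw [lt_swap, Equiv.swap_apply_self]; exact hm'
      · rw [lt_swap]; exact k1

/-- **The word of a centre with harmless points on the circle.** -/
theorem rawT_exc (C : Ctr U T z a b c d e f) (hA : ∀ y, dist y z = 1 → Adm T z a b c d e f y)
    (hD : ∀ y y', dist y z = 1 → dist y' z = 1 → dist y y' = 1 → Hx T z a b e f y →
      ¬ Hx T z c d e f y') : RawT (Xs T z a b c d e f) := by
  have hp : ∀ u, Adm T z a b c d e f (pt z u) := fun u => hA _ (dist_pt z u)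
  have hD' : ∀ y y', dist y z = 1 → dist y' z = 1 → dist y y' = 1 → Hx T z c d e f y →
      ¬ Hx T z a b e f y' := fun y y' h1 h2 h3 h4 h5 =>
    hD y' y h2 h1 (by rw [dist_comm]; exact h3) h5 h4
  refine ⟨C.x_closed, C.x_cover, C.x_per, ?_, ?_, ?_, fun u l h h' => C.x_own h h',
    fun u l h h' => C.x_own' h h', ?_, ?_, ?_⟩
  · exact fun u h => C.x_anti (C.le_of_pair (l := 2) (hp u) h (by decide)) h
  · exact fun u h => C.x_ac (C.le_of_pair (l := 2) (hp u) h (by decide)) h
  · intro u l m n hl hm hn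
    rcases hp u with h3 | hx | hx
    · exact C.x_two h3 hl hm hn
    · rcases C.hx_letter hx hl with rfl | rfl <;> rcases C.hx_letter hx hm with rfl | rfl <;>
        rcases C.hx_letter hx hn with rfl | rfl <;> simp
    · rcases C.hx_letter' hx hl with rfl | rfl <;> rcases C.hx_letter' hx hm with rfl | rfl <;>
        rcases C.hx_letter' hx hn with rfl | rfl <;> simp
  · intro u l m h1 h2 h4 h5
    by_contra hlm
    exact C.noswap_adm hlm (dist_pt_one z u) (hp u) (hp (u + 1))
      (hD _ _ (dist_pt z u) (dist_pt z (u + 1)) (dist_pt_one z u))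
      (hD' _ _ (dist_pt z u) (dist_pt z (u + 1)) (dist_pt_one z u)) h1 h4 h2 h5
  · intro u l m hlm h1 h2 h4 h5
    obtain ⟨k1, k2⟩ := pt_off z u
    have e1 : u + 1 + 1 = u + 2 := by ring
    have k3 := dist_pt_one z (u + 1)
    rw [e1] at k3
    exact (C.dbl_adm hlm (by rw [dist_comm]; exact dist_pt_one z u) k3 k1 k2 (hp (u + 1)) (hp u)
      (hp (u + 2)) h2 h1 h4 h5).1
  · intro u l m hlm h1 h2 h4 h5
    obtain ⟨k1, k2⟩ := pt_off z u
    have e1 : u + 1 + 1 = u + 2 := by ring
    have k3 := dist_pt_one z (u + 1)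
    rw [e1] at k3
    exact (C.dbl_adm hlm (by rw [dist_comm]; exact dist_pt_one z u) k3 k1 k2 (hp (u + 1)) (hp u)
      (hp (u + 2)) h2 h1 h4 h5).2

end Ctr

end Vale.Agent.P032.S5.H767
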