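import Vale.Agent.P032.S5.H767.Pts

/-!
# P032: the letters on the circle of a four coloured centre

`Ctr U T z a b c d e f`: `T z = {a, b, c, d}`, the only constant palettes inside `T z` on `S(z)` are
`{a, b}` and `{c, d}`.  Letters: `0 = e`, `1 = f`, `2` = closure of the exact `ab`-arcs, `3` = closure
of the exact `cd`-arcs.
-/

open Set Filter Topology Metric

noncomputable section

namespace Vale.Agent.P032.S5.H767

open Vale.Agent.P032.Six

variable {U : Fin 6 → Set ℂ} {T : ℂ → Set (Fin 6)} {z : ℂ} {a b c d e f : Fin 6}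

/-- a four coloured centre with the pairs `ab | cd` -/
structure Ctr (U : Fin 6 → Set ℂ) (T : ℂ → Set (Fin 6)) (z : ℂ) (a b c d e f : Fin 6) : Prop where
  irr : Irr U T
  pal : T z = {a, b, c, d}
  nd : [a, b, c, d, e, f].Nodup
  pairs : ∀ y, dist y z = 1 → (∀ᶠ q in 𝓝[sphere z 1] y, T q = T y) → T y ⊆ T z →
    T y = {a, b} ∨ T y = {c, d}

/-- the colours of a letter -/
def col (a b c d e f : Fin 6) : Fin 4 → Set (Fin 6) := ![{e}, {f}, {a, b}, {c, d}]

/-- the letter sets on the circle -/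
def Lt (T : ℂ → Set (Fin 6)) (z : ℂ) (a b c d e f : Fin 6) : Fin 4 → Set ℂ :=
  ![{y | dist y z = 1 ∧ e ∈ T y}, {y | dist y z = 1 ∧ f ∈ T y}, closure (Ex T z {a, b}),
    closure (Ex T z {c, d})]

theorem Lt_dist {l : Fin 4} {y : ℂ} (hy : y ∈ Lt T z a b c d e f l) : dist y z = 1 := by
  fin_cases l
  · exact hy.1
  · exact hy.1
  · exact dist_of_closure hy
  · exact dist_of_closure hy

theorem Lt_col (h : Irr U T) {l : Fin 4} {y : ℂ} (hy : y ∈ Lt T z a b c d e f l) :
    col a b c d e f l ⊆ T y := by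
  fin_cases l
  · exact singleton_subset_iff.2 hy.2
  · exact singleton_subset_iff.2 hy.2
  · exact sub_of_closure h hy
  · exact sub_of_closure h hy

theorem Lt_closed (h : Irr U T) (l : Fin 4) : IsClosed (Lt T z a b c d e f l) := by
  fin_cases l
  · exact (isClosed_sphere (x := z) (ε := 1)).inter (h.closed e)
  · exact (isClosed_sphere (x := z) (ε := 1)).inter (h.closed f)
  · exact isClosed_closure
  · exact isClosed_closure

theorem col_nonempty (l : Fin 4) : (col a b c d e f l).Nonempty := by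
  fin_cases l
  · exact ⟨e, rfl⟩
  · exact ⟨f, rfl⟩
  · exact ⟨a, Or.inl rfl⟩
  · exact ⟨c, Or.inl rfl⟩

theorem four_le {s : Set (Fin 6)} {p q r t : Fin 6} (hp : p ∈ s) (hq : q ∈ s) (hr : r ∈ s)
    (ht : t ∈ s) (h : [p, q, r, t].Nodup) : 4 ≤ s.ncard := by
  have h1 : (↑([p, q, r, t] : List (Fin 6)).toFinset : Set (Fin 6)) ⊆ s := by
    intro m hm
    simp only [List.coe_toFinset, List.mem_cons, List.not_mem_nil, or_false, mem_ofPred_eq] at hm
    rcases hm with rfl | rfl | rfl | rfl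
    exacts [hp, hq, hr, ht]
  have h2 := Set.ncard_le_ncard h1 (Set.toFinite _)
  rw [Set.ncard_coe_finset, List.toFinset_card_of_nodup h] at h2
  simpa using h2

namespace Ctr

/-- every colour is one of the six -/
theorem all (C : Ctr U T z a b c d e f) (i : Fin 6) :
    i = a ∨ i = b ∨ i = c ∨ i = d ∨ i = e ∨ i = f := by
  have h1 : ([a, b, c, d, e, f] : List (Fin 6)).toFinset = Finset.univ :=
    Finset.eq_univ_of_card _ (by rw [List.toFinset_card_of_nodup C.nd]; rfl)
  have h2 : i ∈ ([a, b, c, d, e, f] : List (Fin 6)).toFinset := by rw [h1]; exact Finset.mem_univ i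
  simpa using h2

theorem miss (C : Ctr U T z a b c d e f) {x : Fin 6} (hx : x ∉ T z) : x = e ∨ x = f := by
  rw [C.pal] at hx
  simp only [mem_insert_iff, mem_singleton_iff, not_or] at hx
  obtain ⟨h1, h2, h3, h4⟩ := hx
  rcases C.all x with h | h | h | h | h | h
  exacts [absurd h h1, absurd h h2, absurd h h3, absurd h h4, Or.inl h, Or.inr h]

theorem ne_col (C : Ctr U T z a b c d e f) {l m : Fin 4} (hlm : l ≠ m) {s t : Fin 6}
    (hs : s ∈ col a b c d e f l) (ht : t ∈ col a b c d e f m) : s ≠ t := by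
  have hn := C.nd
  simp only [List.nodup_cons, List.mem_cons, List.not_mem_nil, or_false, not_or, List.nodup_nil,
    and_true, not_false_eq_true] at hn
  obtain ⟨⟨ab, ac, ad, ae, af⟩, ⟨bc, bd, be, bf⟩, ⟨cd, ce, cf⟩, ⟨de, df⟩, ef⟩ := hn
  fin_cases l <;> fin_cases m <;>
    simp only [col, Fin.zero_eta, Fin.mk_one, Fin.reduceFinMk, Matrix.cons_val,
      Matrix.cons_val_zero, Matrix.cons_val_one, mem_singleton_iff, mem_insert_iff, ne_eq,
      not_true_eq_false, not_false_eq_true] at hs ht hlm ⊢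
  all_goals first
    | (exact absurd rfl hlm)
    | (subst hs; subst ht; first | assumption | (exact Ne.symm (by assumption)))
    | (subst hs; rcases ht with rfl | rfl <;>
        first | assumption | (exact Ne.symm (by assumption)))
    | (subst ht; rcases hs with rfl | rfl <;>
        first | assumption | (exact Ne.symm (by assumption)))
    | (rcases hs with rfl | rfl <;> rcases ht with rfl | rfl <;>
        first | assumption | (exact Ne.symm (by assumption)))

/-- every point of the circle has a letter -/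
theorem cover (C : Ctr U T z a b c d e f) {y : ℂ} (hy : dist y z = 1) :
    ∃ l, y ∈ Lt T z a b c d e f l := by
  by_cases he : e ∈ T y
  · exact ⟨0, hy, he⟩
  by_cases hf : f ∈ T y
  · exact ⟨1, hy, hf⟩
  have hsub : T y ⊆ T z := by
    intro i hi
    by_contra hcon
    rcases C.miss hcon with rfl | rfl
    · exact he hi
    · exact hf hi
  have h1 : y ∈ closure (Ex T z {a, b} ∪ Ex T z {c, d}) := by
    rw [mem_closure_iff_nhds]
    intro V hV
    obtain ⟨q, hqV, hqz, hqc, hqs, -⟩ := C.irr.arc_of_sub hy hsub hV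
    rcases C.pairs q hqz hqc (hqs.trans hsub) with h2 | h2
    · exact ⟨q, hqV, Or.inl ⟨hqz, by rw [← h2]; exact hqc⟩⟩
    · exact ⟨q, hqV, Or.inr ⟨hqz, by rw [← h2]; exact hqc⟩⟩
  rw [closure_union] at h1
  rcases h1 with h1 | h1
  · exact ⟨2, h1⟩
  · exact ⟨3, h1⟩

/-- `A` and `C` do not meet at a point with at most three colours -/
theorem noAC (C : Ctr U T z a b c d e f) {y : ℂ} (h3 : (T y).ncard ≤ 3)
    (h1 : y ∈ Lt T z a b c d e f 2) (h2 : y ∈ Lt T z a b c d e f 3) : False := by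
  have k1 := Lt_col C.irr h1
  have k2 := Lt_col C.irr h2
  have h4 := four_le (k1 (Or.inl rfl)) (k1 (Or.inr rfl)) (k2 (Or.inl rfl)) (k2 (Or.inr rfl))
    (C.nd.sublist (l₁ := [a, b, c, d]) (by
      exact List.Sublist.cons₂ _ (List.Sublist.cons₂ _ (List.Sublist.cons₂ _ (List.Sublist.cons₂ _
        (List.nil_sublist _))))))
  omega

/-- `e`, `f` and a pair do not meet at a point with at most three colours -/
theorem noEF (C : Ctr U T z a b c d e f) {y : ℂ} (h3 : (T y).ncard ≤ 3) (he : e ∈ T y)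
    (hf : f ∈ T y) {l : Fin 4} (hl : y ∈ Lt T z a b c d e f l) : l = 0 ∨ l = 1 := by
  have hn := C.nd
  simp only [List.nodup_cons, List.mem_cons, List.not_mem_nil, or_false, not_or, List.nodup_nil,
    and_true, not_false_eq_true] at hn
  obtain ⟨⟨ab, ac, ad, ae, af⟩, ⟨bc, bd, be, bf⟩, ⟨cd, ce, cf⟩, ⟨de, df⟩, ef⟩ := hn
  have k1 := Lt_col C.irr hl
  fin_cases l
  · exact Or.inl rfl
  · exact Or.inr rfl
  · exfalso
    have := four_le (k1 (Or.inl rfl)) (k1 (Or.inr rfl)) he hf
      (by simp [ab, ae, af, be, bf, ef])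
    omega
  · exfalso
    have := four_le (k1 (Or.inl rfl)) (k1 (Or.inr rfl)) he hf
      (by simp [cd, ce, cf, de, df, ef])
    omega

/-- at most two letters at a point with at most three colours -/
theorem two (C : Ctr U T z a b c d e f) {y : ℂ} (h3 : (T y).ncard ≤ 3) {l m n : Fin 4}
    (hl : y ∈ Lt T z a b c d e f l) (hm : y ∈ Lt T z a b c d e f m)
    (hn : y ∈ Lt T z a b c d e f n) : l = m ∨ l = n ∨ m = n := by
  have key : ∀ l m n : Fin 4, l ≠ m → l ≠ n → m ≠ n → y ∈ Lt T z a b c d e f l →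
      y ∈ Lt T z a b c d e f m → y ∈ Lt T z a b c d e f n →
      (y ∈ Lt T z a b c d e f 2 ∧ y ∈ Lt T z a b c d e f 3) ∨
      (y ∈ Lt T z a b c d e f 0 ∧ y ∈ Lt T z a b c d e f 1 ∧
        (y ∈ Lt T z a b c d e f 2 ∨ y ∈ Lt T z a b c d e f 3)) := by
    intro l m n h1 h2 h4 k1 k2 k3
    fin_cases l <;> fin_cases m <;> fin_cases n <;>
      first
      | (exact absurd rfl h1)
      | (exact absurd rfl h2)
      | (exact absurd rfl h4)
      | (left; constructor <;> assumption)
      | (right; refine ⟨by assumption, by assumption, Or.inl (by assumption)⟩)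
      | (right; refine ⟨by assumption, by assumption, Or.inr (by assumption)⟩)
  by_contra hcon
  push Not at hcon
  rcases key l m n hcon.1 hcon.2.1 hcon.2.2 hl hm hn with h | ⟨h1, h2, h4 | h4⟩
  · exact C.noAC h3 h.1 h.2
  · rcases C.noEF h3 h1.2 h2.2 h4 with h5 | h5 <;> exact absurd h5 (by decide)
  · rcases C.noEF h3 h1.2 h2.2 h4 with h5 | h5 <;> exact absurd h5 (by decide)

/-- **(int)** the only letter of `y` is absent at the two neighbours of `y` -/
theorem int (C : Ctr U T z a b c d e f) {y y' : ℂ} {l : Fin 4} (hy : dist y z = 1)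
    (only : ∀ m, y ∈ Lt T z a b c d e f m → m = l) (hy' : dist y' z = 1) (hyy : dist y y' = 1) :
    y' ∉ Lt T z a b c d e f l := by
  intro hl'
  have h1 : ∀ᶠ q in 𝓝[sphere z 1] y, q ∈ Lt T z a b c d e f l := by
    have h2 : ∀ m, m ≠ l → ∀ᶠ q in 𝓝 y, q ∉ Lt T z a b c d e f m := by
      intro m hm
      exact (Lt_closed C.irr m).isOpen_compl.mem_nhds fun h3 => hm (only m h3)
    have h3 : ∀ᶠ q in 𝓝 y, ∀ m, m ≠ l → q ∉ Lt T z a b c d e f m := by
      rw [eventually_all]
      intro m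
      by_cases hm : m = l
      · exact Eventually.of_forall fun q h4 => absurd hm h4
      · filter_upwards [h2 m hm] with q hq _
        exact hq
    filter_upwards [mem_nhdsWithin_of_mem_nhds h3, self_mem_nhdsWithin] with q hq hqz
    obtain ⟨m, hm⟩ := C.cover (y := q) hqz
    by_cases hml : m = l
    · rw [← hml]; exact hm
    · exact absurd hm (hq m hml)
  obtain ⟨t, ht⟩ := col_nonempty (a := a) (b := b) (c := c) (d := d) (e := e) (f := f) l
  obtain ⟨k1, k2⟩ := tri hy hy'
  refine line_free C.irr hy (t := t) ?_ hyy (fun h => k1 h.symm)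
    (fun h => k2 (by rw [← h]; ring)) (C.irr.sub _ (Lt_col C.irr hl' ht))
  filter_upwards [h1] with q hq
  exact Lt_col C.irr hq ht

/-- **(noswap)** no two common letters at neighbours -/
theorem noswap (C : Ctr U T z a b c d e f) {y y' : ℂ} {l m : Fin 4} (hlm : l ≠ m)
    (hyy : dist y y' = 1) (h3 : (T y).ncard ≤ 3) (h3' : (T y').ncard ≤ 3)
    (hl : y ∈ Lt T z a b c d e f l) (hm : y ∈ Lt T z a b c d e f m)
    (hl' : y' ∈ Lt T z a b c d e f l) (hm' : y' ∈ Lt T z a b c d e f m) : False := by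
  obtain ⟨s, hs⟩ := col_nonempty (a := a) (b := b) (c := c) (d := d) (e := e) (f := f) l
  obtain ⟨t, ht⟩ := col_nonempty (a := a) (b := b) (c := c) (d := d) (e := e) (f := f) m
  have hst := C.ne_col hlm hs ht
  have hy := Lt_dist hl
  have hy' := Lt_dist hl'
  have hyy' : dist y' y = 1 := by rw [dist_comm]; exact hyy
  obtain ⟨x, hxz, hx, hx', -, -⟩ := hand C.irr hy hy' hyy h3 h3' hst (Lt_col C.irr hl hs)
    (Lt_col C.irr hm ht) (Lt_col C.irr hl' hs) (Lt_col C.irr hm' ht)
  obtain ⟨w, hwz, hw, hw', -, -⟩ := hand C.irr hy' hy hyy' h3' h3 hst (Lt_col C.irr hl' hs)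
    (Lt_col C.irr hm' ht) (Lt_col C.irr hl hs) (Lt_col C.irr hm ht)
  have hxw : x ≠ w := fun h => hx' (h ▸ hw)
  -- no letter `e`, `f` is common
  have key : ∀ n : Fin 4, y ∈ Lt T z a b c d e f n → y' ∈ Lt T z a b c d e f n →
      n = 2 ∨ n = 3 := by
    intro n hn hn'
    have e1 : n = 0 → False := by
      rintro rfl
      have k1 : x ≠ e := fun h => hx' (h ▸ hn'.2)
      have k2 : w ≠ e := fun h => hw' (h ▸ hn.2)
      exact hxw (((C.miss hxz).resolve_left k1).trans ((C.miss hwz).resolve_left k2).symm)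
    have e2 : n = 1 → False := by
      rintro rfl
      have k1 : x ≠ f := fun h => hx' (h ▸ hn'.2)
      have k2 : w ≠ f := fun h => hw' (h ▸ hn.2)
      exact hxw (((C.miss hxz).resolve_right k1).trans ((C.miss hwz).resolve_right k2).symm)
    have : n = 0 ∨ n = 1 ∨ n = 2 ∨ n = 3 := by fin_cases n <;> decide
    rcases this with h | h | h | h
    exacts [(e1 h).elim, (e2 h).elim, Or.inl h, Or.inr h]
  rcases key l hl hl' with rfl | rfl <;> rcases key m hm hm' with rfl | rfl
  · exact hlm rfl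
  · exact C.noAC h3 hl hm
  · exact C.noAC h3 hm hl
  · exact hlm rfl

/-- a point sharing a pair with one neighbour shares no other letter with another neighbour -/
theorem dblPair (C : Ctr U T z a b c d e f) {y y' y'' : ℂ} {l m : Fin 4} (hlm : l ≠ m)
    (hyy : dist y y' = 1) (hyy' : dist y y'' = 1) (hne : y'' ≠ y') (hne2 : y'' + y' ≠ 2 * y)
    (h3 : (T y).ncard ≤ 3) (h3' : (T y').ncard ≤ 3) {s t : Fin 6} (hst : s ≠ t)
    (hy : dist y z = 1) (hy' : dist y' z = 1) (hs : s ∈ T y) (ht : t ∈ T y) (hs' : s ∈ T y')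
    (ht' : t ∈ T y') (hsm : s ∉ col a b c d e f m) (htm : t ∉ col a b c d e f m)
    (hm : y ∈ Lt T z a b c d e f m) (hm' : y'' ∈ Lt T z a b c d e f m) : False := by
  obtain ⟨x, -, hx, hx', hT, hX⟩ := hand C.irr hy hy' hyy h3 h3' hst hs ht hs' ht'
  obtain ⟨r, hr⟩ := col_nonempty (a := a) (b := b) (c := c) (d := d) (e := e) (f := f) m
  have h1 : r ∈ T y := Lt_col C.irr hm hr
  rw [hT] at h1
  rcases h1 with h1 | h1 | h1
  · exact hsm (h1 ▸ hr)
  · exact htm (h1 ▸ hr)
  · rw [mem_singleton_iff] at h1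
    rcases hX y'' hyy' (C.irr.sub _ (Lt_col C.irr hm' (h1 ▸ hr))) with h2 | h2
    · exact hne h2
    · exact hne2 h2

/-- **(dbl)** a point `y` sharing the letter `l` with `y'` and another letter `m` with `y''`, where
`y', y''` are not on a line with `y`: `{l, m} = {e, f}` and the third colour of `y` is in neither -/
theorem dbl (C : Ctr U T z a b c d e f) {y y' y'' : ℂ} {l m : Fin 4} (hlm : l ≠ m)
    (hyy : dist y y' = 1) (hyy' : dist y y'' = 1) (hne : y'' ≠ y') (hne2 : y'' + y' ≠ 2 * y)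
    (h3 : (T y).ncard ≤ 3) (h3' : (T y').ncard ≤ 3) (h3'' : (T y'').ncard ≤ 3)
    (hl : y ∈ Lt T z a b c d e f l) (hl' : y' ∈ Lt T z a b c d e f l)
    (hm : y ∈ Lt T z a b c d e f m) (hm' : y'' ∈ Lt T z a b c d e f m) :
    (l.val < 2 ∧ m.val < 2) ∧ ∃ x ∈ T z, x ∈ T y ∧ x ∉ T y' ∧ x ∉ T y'' := by
  have hy := Lt_dist hl
  have hy' := Lt_dist hl'
  have hy'' := Lt_dist hm'
  have hne' : y' ≠ y'' := hne.symm
  have hne2' : y' + y'' ≠ 2 * y := by rw [add_comm]; exact hne2
  have kl := Lt_col C.irr hl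
  have kl' := Lt_col C.irr hl'
  have km := Lt_col C.irr hm
  have km' := Lt_col C.irr hm'
  have hn := C.nd
  simp only [List.nodup_cons, List.mem_cons, List.not_mem_nil, or_false, not_or, List.nodup_nil,
    and_true, not_false_eq_true] at hn
  obtain ⟨⟨ab, ac, ad, ae, af⟩, ⟨bc, bd, be, bf⟩, ⟨cd, ce, cf⟩, ⟨de, df⟩, ef⟩ := hn
  -- `l` is not a pair
  have hl2 : l.val < 2 := by
    by_contra hcon
    have : l = 2 ∨ l = 3 := by
      rcases l with ⟨v, hv⟩
      simp only [Fin.ext_iff] at *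
      omega
    rcases this with rfl | rfl
    · exact C.dblPair hlm hyy hyy' hne hne2 h3 h3' ab hy hy' (kl (Or.inl rfl)) (kl (Or.inr rfl))
        (kl' (Or.inl rfl)) (kl' (Or.inr rfl)) (fun h => C.ne_col hlm (Or.inl rfl) h rfl)
        (fun h => C.ne_col hlm (Or.inr rfl) h rfl) hm hm'
    · exact C.dblPair hlm hyy hyy' hne hne2 h3 h3' cd hy hy' (kl (Or.inl rfl)) (kl (Or.inr rfl))
        (kl' (Or.inl rfl)) (kl' (Or.inr rfl)) (fun h => C.ne_col hlm (Or.inl rfl) h rfl)
        (fun h => C.ne_col hlm (Or.inr rfl) h rfl) hm hm'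
  have hm2 : m.val < 2 := by
    by_contra hcon
    have : m = 2 ∨ m = 3 := by
      rcases m with ⟨v, hv⟩
      simp only [Fin.ext_iff] at *
      omega
    rcases this with rfl | rfl
    · exact C.dblPair hlm.symm hyy' hyy hne' hne2' h3 h3'' ab hy hy'' (km (Or.inl rfl))
        (km (Or.inr rfl)) (km' (Or.inl rfl)) (km' (Or.inr rfl))
        (fun h => C.ne_col hlm.symm (Or.inl rfl) h rfl)
        (fun h => C.ne_col hlm.symm (Or.inr rfl) h rfl) hl hl'
    · exact C.dblPair hlm.symm hyy' hyy hne' hne2' h3 h3'' cd hy hy'' (km (Or.inl rfl))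
        (km (Or.inr rfl)) (km' (Or.inl rfl)) (km' (Or.inr rfl))
        (fun h => C.ne_col hlm.symm (Or.inl rfl) h rfl)
        (fun h => C.ne_col hlm.symm (Or.inr rfl) h rfl) hl hl'
  refine ⟨⟨hl2, hm2⟩, ?_⟩
  obtain ⟨s, hs⟩ := col_nonempty (a := a) (b := b) (c := c) (d := d) (e := e) (f := f) l
  obtain ⟨t, ht⟩ := col_nonempty (a := a) (b := b) (c := c) (d := d) (e := e) (f := f) m
  have hst := C.ne_col hlm hs ht
  -- a third colour
  obtain ⟨x, hx, hxs, hxt⟩ : ∃ x ∈ T y, x ≠ s ∧ x ≠ t := by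
    by_contra hcon
    push Not at hcon
    have hsub : T y ⊆ {s, t} := by
      intro x hx
      by_cases h1 : x = s
      · exact Or.inl h1
      · exact Or.inr (hcon x hx h1)
    rcases C.irr.lemmaB hsub hyy hyy' (C.irr.sub _ (kl' hs)) (C.irr.sub _ (km' ht)) with h1 | h1
    · exact hne h1
    · exact hne2 h1
  -- the colours `s, t` are `e, f`
  have hst2 : (s = e ∧ t = f) ∨ (s = f ∧ t = e) := by
    have e1 : ∀ n : Fin 4, n.val < 2 → n = 0 ∨ n = 1 := by decide
    rcases e1 l hl2 with rfl | rfl <;> rcases e1 m hm2 with rfl | rfl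
    · exact absurd rfl hlm
    · exact Or.inl ⟨hs, ht⟩
    · exact Or.inr ⟨hs, ht⟩
    · exact absurd rfl hlm
  have hxef : x ≠ e ∧ x ≠ f := by
    rcases hst2 with ⟨rfl, rfl⟩ | ⟨rfl, rfl⟩
    · exact ⟨hxs, hxt⟩
    · exact ⟨hxt, hxs⟩
  have hxz : x ∈ T z := by
    by_contra h1
    rcases C.miss h1 with h2 | h2
    · exact hxef.1 h2
    · exact hxef.2 h2
  have hxl : x ∉ col a b c d e f l := by
    have e1 : ∀ n : Fin 4, n.val < 2 → n = 0 ∨ n = 1 := by decide
    intro h1
    rcases e1 l hl2 with rfl | rfl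
    · exact hxef.1 h1
    · exact hxef.2 h1
  have hxm : x ∉ col a b c d e f m := by
    have e1 : ∀ n : Fin 4, n.val < 2 → n = 0 ∨ n = 1 := by decide
    intro h1
    rcases e1 m hm2 with rfl | rfl
    · exact hxef.1 h1
    · exact hxef.2 h1
  refine ⟨x, hxz, hx, fun hx' => ?_, fun hx' => ?_⟩
  · exact C.dblPair hlm hyy hyy' hne hne2 h3 h3' hxs.symm hy hy' (kl hs) hx (kl' hs) hx'
      (fun h => C.ne_col hlm hs h rfl) hxm hm hm'
  · exact C.dblPair hlm.symm hyy' hyy hne' hne2' h3 h3'' hxt.symm hy hy'' (km ht) hx (km' ht) hx'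
      (fun h => C.ne_col hlm.symm ht h rfl) hxl hl hl'

end Ctr

end Vale.Agent.P032.S5.H767
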