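import Vale.Agent.P032.S5.H483.Irr

/-!
# P032: letters on the unit circle of a four coloured centre (irredundant frame), points

`Ex T z P`: the points of `S(z)` near which `S(z)` has the constant palette `P`.
-/

open Set Filter Topology Metric

noncomputable section

namespace Vale.Agent.P032.S5.H767

open Vale.Agent.P032.Six

variable {k : ℕ} {U : Fin k → Set ℂ} {T : ℂ → Set (Fin k)}

/-- points `y` of `S(z)` near which `S(z)` has the constant palette `P` -/
def Ex (T : ℂ → Set (Fin k)) (z : ℂ) (P : Set (Fin k)) : Set ℂ :=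
  {y | dist y z = 1 ∧ ∀ᶠ q in 𝓝[sphere z 1] y, T q = P}

theorem ex_self {z y : ℂ} {P : Set (Fin k)} (hy : y ∈ Ex T z P) : T y = P := by
  have h1 : y ∈ sphere z 1 := hy.1
  exact hy.2.self_of_nhdsWithin h1

theorem ex_open {z y : ℂ} {P : Set (Fin k)} (hy : y ∈ Ex T z P) :
    ∀ᶠ q in 𝓝[sphere z 1] y, q ∈ Ex T z P := by
  filter_upwards [eventually_eventually_nhdsWithin.2 hy.2, self_mem_nhdsWithin] with q h1 h2
  exact ⟨h2, h1⟩

theorem dist_of_closure {z y : ℂ} {P : Set (Fin k)} (hy : y ∈ closure (Ex T z P)) :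
    dist y z = 1 := by
  have h1 : closure (Ex T z P) ⊆ sphere z 1 := closure_minimal (fun q hq => hq.1) isClosed_sphere
  exact h1 hy

theorem sub_of_closure (h : Irr U T) {z y : ℂ} {P : Set (Fin k)} (hy : y ∈ closure (Ex T z P)) :
    P ⊆ T y := by
  intro i hi
  have h1 : closure (Ex T z P) ⊆ {x | i ∈ T x} := by
    refine closure_minimal (fun q hq => ?_) (h.closed i)
    have := ex_self hq
    show i ∈ T q
    rw [this]; exact hi
  exact h1 hy

/-- two points of `S(z)` at distance one: the line through them does not contain `z` -/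
theorem tri {z y y' : ℂ} (hyz : dist y z = 1) (hy'z : dist y' z = 1) :
    z ≠ y' ∧ z + y' ≠ 2 * y := by
  refine ⟨fun h => ?_, fun h => ?_⟩
  · rw [h, dist_self] at hy'z; exact zero_ne_one hy'z
  · have h1 : y' - z = 2 * (y - z) := by linear_combination h
    have h2 : dist y' z = 2 := by
      rw [dist_eq_norm, h1, norm_mul, ← dist_eq_norm, hyz]; simp
    rw [h2] at hy'z; norm_num at hy'z

/-- a colour on the whole circle near `y` is absent at the points of `S(y)` off the line `yz` -/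
theorem line_free (h : Irr U T) {z y v : ℂ} {t : Fin k} (hyz : dist y z = 1)
    (hJ : ∀ᶠ q in 𝓝[sphere z 1] y, t ∈ T q) (hv : dist y v = 1) (h1 : v ≠ z)
    (h2 : v + z ≠ 2 * y) : t ∉ Pal U v := by
  intro ht
  rcases h.mx.partner_line hyz (hJ.mono fun q hq => h.sub q hq) hv ht with h3 | h3
  · exact h1 h3
  · exact h2 h3

/-- the neighbours of `y` on `S(z)` are off the line `yz` -/
theorem off_line {z y y' : ℂ} (hy'z : dist y' z = 1) : y' ≠ z ∧ y' + z ≠ 2 * y ∨ dist y z ≠ 1 := by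
  by_cases hyz : dist y z = 1
  · left
    obtain ⟨h1, h2⟩ := tri hyz hy'z
    exact ⟨fun h => h1 h.symm, fun h => h2 (by rw [← h]; ring)⟩
  · exact Or.inr hyz

/-- **Hand over.** Two points of `S(z)` at distance one with two common colours `s, t`. -/
theorem hand (h : Irr U T) {z y y' : ℂ} (hyz : dist y z = 1) (hy'z : dist y' z = 1)
    (hyy : dist y y' = 1) (h3 : (T y).ncard ≤ 3) (h3' : (T y').ncard ≤ 3) {s t : Fin k}
    (hst : s ≠ t) (hs : s ∈ T y) (ht : t ∈ T y) (hs' : s ∈ T y') (ht' : t ∈ T y') :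
    ∃ x, x ∉ T z ∧ x ∈ T y ∧ x ∉ T y' ∧ T y = {s, t, x} ∧
      ∀ v, dist y v = 1 → x ∈ Pal U v → v = y' ∨ v + y' = 2 * y := by
  obtain ⟨x, hx, hx'⟩ := h.not_sub' hyy h3'
  have hxs : x ≠ s := fun h1 => hx' (h1 ▸ hs')
  have hxt : x ≠ t := fun h1 => hx' (h1 ▸ ht')
  have h1 : ({s, t, x} : Set (Fin k)) ⊆ T y := by
    rintro m (rfl | rfl | rfl)
    · exact hs
    · exact ht
    · exact hx
  have h2 : ({s, t, x} : Set (Fin k)).ncard = 3 :=
    Set.ncard_eq_three.2 ⟨s, t, x, hst, hxs.symm, hxt.symm, rfl⟩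
  have h4 : {s, t, x} = T y := Set.eq_of_subset_of_ncard_le h1 (by omega) (Set.toFinite _)
  have hsub : T y ⊆ insert x (T y') := by
    rw [← h4]
    rintro m (rfl | rfl | rfl)
    · exact Or.inr hs'
    · exact Or.inr ht'
    · exact Or.inl rfl
  have hX : ∀ v, dist y v = 1 → x ∈ Pal U v → v = y' ∨ v + y' = 2 * y :=
    fun v hv hxv => h.lemmaX hyy h3' hsub hv hxv
  refine ⟨x, fun hxz => ?_, hx, hx', h4.symm, hX⟩
  obtain ⟨h5, h6⟩ := tri hyz hy'z
  rcases hX z hyz (h.sub z hxz) with h7 | h7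
  · exact h5 h7
  · exact h6 h7

/-- **Antipodes.** A point `y` of `S(z)` with at most three colours, `T z ⊆ T y ∪ P`: there are no
exact `P`-arcs near the antipode of `y`. -/
theorem anti (h : Irr U T) {z y : ℂ} (hyz : dist y z = 1) (h3 : (T y).ncard ≤ 3)
    {P : Set (Fin k)} (hP : T z ⊆ T y ∪ P) (hc : 2 * z - y ∈ closure (Ex T z P)) : False := by
  have hcont : Tendsto (fun w : ℂ => y + w - z) (𝓝 (2 * z - y)) (𝓝 z) := by
    have : Continuous fun w : ℂ => y + w - z := by fun_prop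
    have h2 := this.tendsto (2 * z - y)
    have e : y + (2 * z - y) - z = z := by ring
    rw [e] at h2; exact h2
  have hV := hcont.eventually (h.nhd z)
  obtain ⟨w', hw'V, hw'⟩ := mem_closure_iff_nhds.1 hc _ (eventually_eventually_nhds.2 hV)
  have hw'V : ∀ᶠ w in 𝓝 w', T (y + w - z) ⊆ T z := hw'V
  have hs : {q | q ∈ Ex T z P ∧ T (y + q - z) ⊆ T z} ∈ 𝓝[sphere z 1] w' :=
    (ex_open hw').and (mem_nhdsWithin_of_mem_nhds hw'V)
  obtain ⟨q, ⟨hqE, hqs⟩, hqz, hqy, hqy2, -⟩ := exists_generic (y := y) hw'.1 hs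
  have hwq : dist q (y + q - z) = 1 := by
    rw [dist_eq_norm] at hyz ⊢
    rw [← hyz, ← norm_neg]; congr 1; ring
  have hwy : dist (y + q - z) y = 1 := by
    rw [dist_eq_norm] at hqz ⊢
    rw [← hqz]; congr 1; ring
  have hne : y + q - z ≠ z := fun h1 => hqy2 (by linear_combination h1)
  have hne2 : y + q - z + z ≠ 2 * q := fun h1 => hqy (by linear_combination -h1)
  refine h.not_sub hwy h3 fun m hm => ?_
  rcases hP (hqs hm) with h1 | h1
  · exact h1
  · refine absurd (h.sub _ hm) (line_free h hqz ?_ hwq hne hne2)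
    filter_upwards [hqE.2] with r hr
    rw [hr]; exact h1

end Vale.Agent.P032.S5.H767
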